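import Mathlib

open Finset

namespace Vale.Agent.H28.P230

variable {ι : Type*} [DecidableEq ι]

/-- product weight restricted to the cells of `H`. -/
def wtOn (p : ι → ℝ) (H h : Finset ι) : ℝ := ∏ c ∈ H, if c ∈ h then p c else 1 - p c

/-- Bernoulli product weight of `w`. -/
def wt [Fintype ι] (p : ι → ℝ) (w : Finset ι) : ℝ := wtOn p univ w

/-- expectation under the Bernoulli product weight. -/
noncomputable def Ex [Fintype ι] (p : ι → ℝ) (f : Finset ι → ℝ) : ℝ := ∑ w, wt p w * f w

open Classical in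
/-- probability of an event. -/
noncomputable def Pr [Fintype ι] (p : ι → ℝ) (A : Finset ι → Prop) : ℝ :=
  Ex p (fun w => if A w then 1 else 0)

theorem wtOn_nonneg (p : ι → ℝ) (hp : ∀ c, 0 ≤ p c ∧ p c ≤ 1) (H h : Finset ι) :
    0 ≤ wtOn p H h := by
  apply prod_nonneg
  intro c _
  split_ifs
  · exact (hp c).1
  · linarith [(hp c).2]

theorem wtOn_insert_not (p : ι → ℝ) {c : ι} {H h : Finset ι} (hc : c ∉ H) (hh : h ⊆ H) :
    wtOn p (insert c H) h = (1 - p c) * wtOn p H h := by
  unfold wtOn
  rw [prod_insert hc, if_neg (fun h' => hc (hh h'))]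

theorem wtOn_insert_insert (p : ι → ℝ) {c : ι} {H : Finset ι} (h : Finset ι) (hc : c ∉ H) :
    wtOn p (insert c H) (insert c h) = p c * wtOn p H h := by
  unfold wtOn
  rw [prod_insert hc, if_pos (mem_insert_self c h)]
  congr 1
  apply prod_congr rfl
  intro x hx
  have : x ≠ c := fun h' => hc (h' ▸ hx)
  simp [this]

variable [Fintype ι]

theorem Ex_eq_erase (p : ι → ℝ) (c : ι) (f : Finset ι → ℝ) :
    Ex p f = ∑ t ∈ (univ.erase c).powerset,
      wtOn p (univ.erase c) t * ((1 - p c) * f t + p c * f (insert c t)) := by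
  unfold Ex wt
  have h1 : (univ : Finset (Finset ι)) = (insert c (univ.erase c) : Finset ι).powerset := by
    rw [insert_erase (mem_univ c)]; simp
  have h2 : (univ : Finset ι) = insert c (univ.erase c) := (insert_erase (mem_univ c)).symm
  have hc : c ∉ (univ.erase c : Finset ι) := notMem_erase c _
  calc ∑ w, wtOn p univ w * f w
      = ∑ w ∈ (insert c (univ.erase c) : Finset ι).powerset,
          wtOn p (insert c (univ.erase c)) w * f w := by rw [← h1, ← h2]
    _ = _ := by
        rw [sum_powerset_insert hc, ← sum_add_distrib]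
        apply sum_congr rfl
        intro t ht
        rw [mem_powerset] at ht
        rw [wtOn_insert_not p hc ht, wtOn_insert_insert p t hc]
        ring

/-- splitting one cell -/
theorem Ex_split_one (p : ι → ℝ) (c : ι) (f : Finset ι → ℝ) :
    Ex p f = (1 - p c) * Ex p (fun w => f (w.erase c)) + p c * Ex p (fun w => f (insert c w)) := by
  rw [Ex_eq_erase p c f, Ex_eq_erase p c (fun w => f (w.erase c)),
    Ex_eq_erase p c (fun w => f (insert c w)), mul_sum, mul_sum, ← sum_add_distrib]
  apply sum_congr rfl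
  intro t ht
  rw [mem_powerset] at ht
  have hct : c ∉ t := fun h => notMem_erase c _ (ht h)
  have e1 : t.erase c = t := erase_eq_of_notMem hct
  have e2 : (insert c t).erase c = t := erase_insert hct
  have e3 : insert c (insert c t) = insert c t := by simp
  simp only [e1, e2, e3]
  ring

/-- splitting a set of cells -/
theorem Ex_split (p : ι → ℝ) (H : Finset ι) (f : Finset ι → ℝ) :
    Ex p f = ∑ h ∈ H.powerset, wtOn p H h * Ex p (fun w => f ((w \ H) ∪ h)) := by
  induction H using Finset.induction_on generalizing f with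
  | empty => simp [wtOn]
  | insert c H hc ih =>
    rw [sum_powerset_insert hc, Ex_split_one p c f, ih, ih, mul_sum, mul_sum]
    congr 1
    · apply sum_congr rfl
      intro h hh
      rw [mem_powerset] at hh
      rw [wtOn_insert_not p hc hh]
      have : (fun w : Finset ι => f (((w \ H) ∪ h).erase c)) =
          fun w => f ((w \ insert c H) ∪ h) := by
        funext w
        congr 1
        ext x
        have hch : c ∉ h := fun h' => hc (hh h')
        simp only [mem_erase, mem_union, mem_sdiff, mem_insert]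
        by_cases hx : x = c
        · subst hx; simp [hch]
        · simp [hx]
      rw [this]; ring
    · apply sum_congr rfl
      intro h hh
      rw [wtOn_insert_insert p h hc]
      have : (fun w : Finset ι => f (insert c ((w \ H) ∪ h))) =
          fun w => f ((w \ insert c H) ∪ insert c h) := by
        funext w
        congr 1
        ext x
        simp only [mem_union, mem_sdiff, mem_insert]
        by_cases hx : x = c
        · subst hx; simp
        · simp [hx]
      rw [this]; ring

theorem sum_wtOn (p : ι → ℝ) (H : Finset ι) : ∑ h ∈ H.powerset, wtOn p H h = 1 := by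
  unfold wtOn
  induction H using Finset.induction_on with
  | empty => simp
  | insert c H hc ih =>
    rw [sum_powerset_insert hc]
    have h1 : ∀ h ∈ H.powerset, (∏ x ∈ insert c H, if x ∈ h then p x else 1 - p x) =
        (1 - p c) * ∏ x ∈ H, if x ∈ h then p x else 1 - p x :=
      fun h hh => wtOn_insert_not p hc (mem_powerset.mp hh)
    have h2 : ∀ h ∈ H.powerset, (∏ x ∈ insert c H, if x ∈ insert c h then p x else 1 - p x) =
        p c * ∏ x ∈ H, if x ∈ h then p x else 1 - p x :=
      fun h _ => wtOn_insert_insert p h hc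
    rw [sum_congr rfl h1, sum_congr rfl h2, ← mul_sum, ← mul_sum, ih]; ring

/-- generating function of the number of open cells in `H` -/
theorem sum_wtOn_pow (p : ι → ℝ) (H : Finset ι) (q : ℝ) :
    ∑ h ∈ H.powerset, wtOn p H h * q ^ h.card = ∏ c ∈ H, (1 - p c + p c * q) := by
  induction H using Finset.induction_on with
  | empty => simp [wtOn]
  | insert c H hc ih =>
    rw [sum_powerset_insert hc, prod_insert hc, ← ih]
    have h1 : ∀ h ∈ H.powerset, wtOn p (insert c H) h * q ^ h.card =
        (1 - p c) * (wtOn p H h * q ^ h.card) := by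
      intro h hh
      rw [wtOn_insert_not p hc (mem_powerset.mp hh)]; ring
    have h2 : ∀ h ∈ H.powerset, wtOn p (insert c H) (insert c h) * q ^ (insert c h).card =
        p c * q * (wtOn p H h * q ^ h.card) := by
      intro h hh
      have hch : c ∉ h := fun h' => hc (mem_powerset.mp hh h')
      rw [wtOn_insert_insert p h hc, card_insert_of_notMem hch]; ring
    rw [sum_congr rfl h1, sum_congr rfl h2, ← mul_sum, ← mul_sum]; ring

theorem sum_wt (p : ι → ℝ) : ∑ w, wt p w = 1 := by
  have := sum_wtOn p univ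
  rw [powerset_univ] at this
  exact this

theorem Ex_const (p : ι → ℝ) (a : ℝ) : Ex p (fun _ => a) = a := by
  unfold Ex; rw [← sum_mul, sum_wt, one_mul]

theorem wt_nonneg (p : ι → ℝ) (hp : ∀ c, 0 ≤ p c ∧ p c ≤ 1) (w : Finset ι) : 0 ≤ wt p w :=
  wtOn_nonneg p hp univ w

theorem Ex_mono (p : ι → ℝ) (hp : ∀ c, 0 ≤ p c ∧ p c ≤ 1) {f g : Finset ι → ℝ}
    (h : ∀ w, f w ≤ g w) : Ex p f ≤ Ex p g :=
  sum_le_sum fun w _ => mul_le_mul_of_nonneg_left (h w) (wt_nonneg p hp w)

theorem Ex_nonneg (p : ι → ℝ) (hp : ∀ c, 0 ≤ p c ∧ p c ≤ 1) {f : Finset ι → ℝ}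
    (h : ∀ w, 0 ≤ f w) : 0 ≤ Ex p f :=
  sum_nonneg fun w _ => mul_nonneg (wt_nonneg p hp w) (h w)

theorem Ex_add (p : ι → ℝ) (f g : Finset ι → ℝ) : Ex p (fun w => f w + g w) = Ex p f + Ex p g := by
  unfold Ex; rw [← sum_add_distrib]; exact sum_congr rfl fun w _ => by ring

theorem Ex_smul (p : ι → ℝ) (a : ℝ) (f : Finset ι → ℝ) :
    Ex p (fun w => a * f w) = a * Ex p f := by
  unfold Ex; rw [mul_sum]; exact sum_congr rfl fun w _ => by ring

theorem Ex_sum {κ : Type*} (p : ι → ℝ) (s : Finset κ) (f : κ → Finset ι → ℝ) :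
    Ex p (fun w => ∑ i ∈ s, f i w) = ∑ i ∈ s, Ex p (f i) := by
  unfold Ex
  simp_rw [mul_sum]
  rw [sum_comm]

/-- Harris inequality -/
theorem harris (p : ι → ℝ) (hp : ∀ c, 0 ≤ p c ∧ p c ≤ 1) (f g : Finset ι → ℝ)
    (hf0 : ∀ w, 0 ≤ f w) (hg0 : ∀ w, 0 ≤ g w) (hf : Monotone f) (hg : Monotone g) :
    Ex p f * Ex p g ≤ Ex p (fun w => f w * g w) := by
  have h := fkg (α := Finset ι) (β := ℝ) (f := f) (g := g) (μ := wt p)
    (fun w => wt_nonneg p hp w) (fun w => hf0 w) (fun w => hg0 w) hf hg ?_
  · rw [sum_wt, one_mul] at h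
    exact h
  · intro a b
    unfold wt wtOn
    rw [← prod_mul_distrib, ← prod_mul_distrib]
    apply le_of_eq
    apply prod_congr rfl
    intro c _
    simp only [inf_eq_inter, sup_eq_union, mem_inter, mem_union]
    by_cases h1 : c ∈ a <;> by_cases h2 : c ∈ b <;> simp [h1, h2, mul_comm]

theorem harris_prod {κ : Type*} (p : ι → ℝ) (hp : ∀ c, 0 ≤ p c ∧ p c ≤ 1) (s : Finset κ)
    (f : κ → Finset ι → ℝ) (hf0 : ∀ i w, 0 ≤ f i w) (hf : ∀ i, Monotone (f i)) :
    ∏ i ∈ s, Ex p (f i) ≤ Ex p (fun w => ∏ i ∈ s, f i w) := by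
  classical
  induction s using Finset.induction_on with
  | empty => simp [Ex_const]
  | insert i s hi ih =>
    rw [prod_insert hi]
    calc Ex p (f i) * ∏ j ∈ s, Ex p (f j) ≤ Ex p (f i) * Ex p (fun w => ∏ j ∈ s, f j w) :=
          mul_le_mul_of_nonneg_left ih (Ex_nonneg p hp (hf0 i))
      _ ≤ Ex p (fun w => f i w * ∏ j ∈ s, f j w) :=
          harris p hp _ _ (hf0 i) (fun w => prod_nonneg fun j _ => hf0 j w) (hf i)
            (fun w w' hw => prod_le_prod (fun j _ => hf0 j w) (fun j _ => hf j hw))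
      _ = _ := by
          congr 1; funext w; rw [prod_insert hi]

/-- `f` depends only on the cells of `A`. -/
def DepOn (f : Finset ι → ℝ) (A : Finset ι) : Prop := ∀ w w', w ∩ A = w' ∩ A → f w = f w'

theorem Ex_of_depOn (p : ι → ℝ) {f : Finset ι → ℝ} {A : Finset ι} (hf : DepOn f A) :
    Ex p f = ∑ h ∈ A.powerset, wtOn p A h * f h := by
  rw [Ex_split p A f]
  apply sum_congr rfl
  intro h hh
  rw [mem_powerset] at hh
  congr 1
  have : (fun w : Finset ι => f ((w \ A) ∪ h)) = fun _ => f h := by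
    funext w
    apply hf
    ext x
    simp only [mem_inter, mem_union, mem_sdiff]
    constructor
    · rintro ⟨h1 | h1, h2⟩
      · exact absurd h2 h1.2
      · exact ⟨h1, h2⟩
    · rintro ⟨h1, h2⟩
      exact ⟨Or.inr h1, h2⟩
  rw [this, Ex_const]

theorem Ex_mul_of_disjoint (p : ι → ℝ) {f g : Finset ι → ℝ} {A B : Finset ι} (hf : DepOn f A)
    (hg : DepOn g B) (hAB : Disjoint A B) :
    Ex p (fun w => f w * g w) = Ex p f * Ex p g := by
  rw [Ex_split p A, Ex_of_depOn p hf, sum_mul]
  apply sum_congr rfl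
  intro h hh
  rw [mem_powerset] at hh
  have h1 : (fun w : Finset ι => f ((w \ A) ∪ h) * g ((w \ A) ∪ h)) = fun w => f h * g w := by
    funext w
    congr 1
    · apply hf
      ext x
      simp only [mem_inter, mem_union, mem_sdiff]
      constructor
      · rintro ⟨h1 | h1, h2⟩
        · exact absurd h2 h1.2
        · exact ⟨h1, h2⟩
      · rintro ⟨h1, h2⟩
        exact ⟨Or.inr h1, h2⟩
    · apply hg
      ext x
      simp only [mem_inter, mem_union, mem_sdiff]
      have hd := Finset.disjoint_left.mp hAB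
      constructor
      · rintro ⟨h1 | h1, h2⟩
        · exact ⟨h1.1, h2⟩
        · exact absurd h2 (hd (hh h1))
      · rintro ⟨h1, h2⟩
        exact ⟨Or.inl ⟨h1, fun h' => hd h' h2⟩, h2⟩
  rw [h1, Ex_smul]; ring

theorem DepOn.prod {κ : Type*} [DecidableEq κ] {f : κ → Finset ι → ℝ} {A : κ → Finset ι}
    (s : Finset κ) (hf : ∀ i ∈ s, DepOn (f i) (A i)) :
    DepOn (fun w => ∏ i ∈ s, f i w) (s.biUnion A) := by
  intro w w' h
  apply prod_congr rfl
  intro i hi
  apply hf i hi
  have hsub : A i ⊆ s.biUnion A := subset_biUnion_of_mem A hi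
  calc w ∩ A i = (w ∩ s.biUnion A) ∩ A i := by
        rw [inter_assoc, inter_eq_right.mpr hsub]
    _ = (w' ∩ s.biUnion A) ∩ A i := by rw [h]
    _ = w' ∩ A i := by rw [inter_assoc, inter_eq_right.mpr hsub]

theorem Ex_prod_of_disjoint {κ : Type*} [DecidableEq κ] (p : ι → ℝ) {f : κ → Finset ι → ℝ}
    {A : κ → Finset ι} (s : Finset κ) (hf : ∀ i ∈ s, DepOn (f i) (A i))
    (hA : ∀ i ∈ s, ∀ j ∈ s, i ≠ j → Disjoint (A i) (A j)) :
    Ex p (fun w => ∏ i ∈ s, f i w) = ∏ i ∈ s, Ex p (f i) := by
  induction s using Finset.induction_on with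
  | empty => simp [Ex_const]
  | insert i s hi ih =>
    rw [prod_insert hi, ← ih (fun j hj => hf j (mem_insert_of_mem hj))
      (fun j hj k hk => hA j (mem_insert_of_mem hj) k (mem_insert_of_mem hk))]
    rw [← Ex_mul_of_disjoint p (hf i (mem_insert_self i s))
      (DepOn.prod s (fun j hj => hf j (mem_insert_of_mem hj)))]
    · congr 1; funext w; rw [prod_insert hi]
    · rw [Finset.disjoint_biUnion_right]
      intro j hj
      apply hA i (mem_insert_self i s) j (mem_insert_of_mem hj)
      rintro rfl; exact hi hj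

/-! ### Hitting events -/

/-- `w` meets every `Z i`, `i ∈ R`. -/
def hits {κ : Type*} (Z : κ → Finset ι) (R : Finset κ) (w : Finset ι) : Prop :=
  ∀ i ∈ R, (w ∩ Z i).Nonempty

theorem Pr_nonneg (p : ι → ℝ) (hp : ∀ c, 0 ≤ p c ∧ p c ≤ 1) (A : Finset ι → Prop) :
    0 ≤ Pr p A := Ex_nonneg p hp fun w => by split_ifs <;> norm_num

theorem Pr_mono (p : ι → ℝ) (hp : ∀ c, 0 ≤ p c ∧ p c ≤ 1) {A B : Finset ι → Prop}
    (h : ∀ w, A w → B w) : Pr p A ≤ Pr p B := by
  apply Ex_mono p hp
  intro w
  by_cases h1 : A w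
  · simp [h1, h w h1]
  · simp only [h1, if_false]
    split_ifs <;> norm_num

theorem Pr_le_one (p : ι → ℝ) (hp : ∀ c, 0 ≤ p c ∧ p c ≤ 1) (A : Finset ι → Prop) :
    Pr p A ≤ 1 := by
  rw [← Ex_const p 1]
  apply Ex_mono p hp
  intro w; split_ifs <;> norm_num

theorem Pr_not (p : ι → ℝ) (A : Finset ι → Prop) : Pr p (fun w => ¬ A w) = 1 - Pr p A := by
  have h : Pr p (fun w => ¬ A w) + Pr p A = 1 := by
    unfold Pr
    rw [← Ex_add]
    refine (congrArg (Ex p) ?_).trans (Ex_const p 1)
    funext w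
    by_cases h : A w <;> simp [h]
  linarith

/-- Harris for increasing events -/
theorem harris_and (p : ι → ℝ) (hp : ∀ c, 0 ≤ p c ∧ p c ≤ 1) {A B : Finset ι → Prop}
    (hA : ∀ w w', w ⊆ w' → A w → A w') (hB : ∀ w w', w ⊆ w' → B w → B w') :
    Pr p A * Pr p B ≤ Pr p (fun w => A w ∧ B w) := by
  classical
  have h := harris p hp (fun w => if A w then 1 else 0) (fun w => if B w then 1 else 0)
    (fun w => by split_ifs <;> norm_num) (fun w => by split_ifs <;> norm_num) ?_ ?_
  · refine le_trans (le_of_eq ?_) (le_trans h (le_of_eq ?_))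
    · unfold Pr; congr!
    · unfold Pr
      congr 1
      funext w
      by_cases h1 : A w <;> by_cases h2 : B w <;> simp [h1, h2]
  · intro w w' hw
    by_cases h1 : A w
    · simp [h1, hA w w' hw h1]
    · simp only [h1, if_false]; split_ifs <;> norm_num
  · intro w w' hw
    by_cases h1 : B w
    · simp [h1, hB w w' hw h1]
    · simp only [h1, if_false]; split_ifs <;> norm_num

theorem hits_mono {κ : Type*} (Z : κ → Finset ι) (R : Finset κ) (w w' : Finset ι) (h : w ⊆ w')
    (hw : hits Z R w) : hits Z R w' :=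
  fun i hi => (hw i hi).mono (inter_subset_inter_right h)

/-- Harris: all the sets are hit with probability at least the product. -/
theorem Pr_hits_ge {κ : Type*} [DecidableEq κ] (p : ι → ℝ) (hp : ∀ c, 0 ≤ p c ∧ p c ≤ 1)
    (Z : κ → Finset ι) (R : Finset κ) (q : κ → ℝ) (hq0 : ∀ i ∈ R, 0 ≤ q i)
    (hq : ∀ i ∈ R, q i ≤ Pr p (fun w => (w ∩ Z i).Nonempty)) :
    ∏ i ∈ R, q i ≤ Pr p (hits Z R) := by
  induction R using Finset.induction_on with
  | empty =>
    have : Pr p (hits Z (∅ : Finset κ)) = 1 := by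
      unfold Pr
      refine (congrArg (Ex p) ?_).trans (Ex_const p 1)
      funext w; simp [hits]
    simp [this]
  | insert i R hi ih =>
    rw [prod_insert hi]
    calc q i * ∏ j ∈ R, q j
        ≤ Pr p (fun w => (w ∩ Z i).Nonempty) * Pr p (hits Z R) := by
          apply mul_le_mul (hq i (mem_insert_self i R))
            (ih (fun j hj => hq0 j (mem_insert_of_mem hj)) (fun j hj => hq j (mem_insert_of_mem hj)))
            (prod_nonneg fun j hj => hq0 j (mem_insert_of_mem hj)) (Pr_nonneg p hp _)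
      _ ≤ Pr p (fun w => (w ∩ Z i).Nonempty ∧ hits Z R w) :=
          harris_and p hp (fun w w' h hw => hw.mono (inter_subset_inter_right h))
            (hits_mono Z R)
      _ ≤ _ := by
          apply Pr_mono p hp
          rintro w ⟨h1, h2⟩ j hj
          rcases mem_insert.mp hj with rfl | hj
          · exact h1
          · exact h2 j hj

/-- probability of missing a set -/
theorem Pr_miss (p : ι → ℝ) (Z : Finset ι) :
    Pr p (fun w => ¬ (w ∩ Z).Nonempty) = ∏ c ∈ Z, (1 - p c) := by
  classical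
  have hdep : DepOn (fun w : Finset ι => if ¬ (w ∩ Z).Nonempty then (1:ℝ) else 0) Z := by
    intro w w' h
    simp only [h]
  have h0 : Pr p (fun w => ¬ (w ∩ Z).Nonempty) =
      Ex p (fun w : Finset ι => if ¬ (w ∩ Z).Nonempty then (1:ℝ) else 0) := by
    unfold Pr; congr!
  rw [h0, Ex_of_depOn p hdep, sum_eq_single ∅]
  · simp [wtOn]
  · intro h hh hne
    rw [mem_powerset] at hh
    have : (h ∩ Z).Nonempty := by
      rw [inter_eq_left.mpr hh]; exact nonempty_iff_ne_empty.mpr hne
    simp [this]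
  · intro h; exact absurd (empty_mem_powerset Z) h

end Vale.Agent.H28.P230
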