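import Mathlib

open MeasureTheory Metric Set
open scoped ENNReal NNReal Pointwise

namespace Vale.Agent.H28.P230

variable {n : ℕ}

/-- The cap of the unit ball cut by the half-space `⟪u, g⟫ > t`. -/
def cap (u : EuclideanSpace ℝ (Fin n)) (t : ℝ) : Set (EuclideanSpace ℝ (Fin n)) :=
  {g | ‖g‖ ≤ 1 ∧ t < inner ℝ u g}

theorem cap_measurable (u : EuclideanSpace ℝ (Fin n)) (t : ℝ) : MeasurableSet (cap u t) := by
  have h1 : MeasurableSet {g : EuclideanSpace ℝ (Fin n) | ‖g‖ ≤ 1} :=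
    measurableSet_le measurable_norm measurable_const
  have h2 : MeasurableSet {g : EuclideanSpace ℝ (Fin n) | t < inner ℝ u g} :=
    measurableSet_lt measurable_const (by fun_prop)
  exact h1.inter h2

theorem cap_lt_top (u : EuclideanSpace ℝ (Fin n)) (t : ℝ) : volume (cap u t) < ⊤ := by
  refine lt_of_le_of_lt (measure_mono ?_) (measure_closedBall_lt_top (x := (0:EuclideanSpace ℝ (Fin n))) (r := 1))
  intro g hg
  simpa using hg.1

theorem cap_homothety (u : EuclideanSpace ℝ (Fin n)) (hu : ‖u‖ = 1) {t t' : ℝ} (ht : t ≤ t')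
    (ht' : t' < 1) :
    ENNReal.ofReal (((1 - t') / (1 - t)) ^ n) * volume (cap u t) ≤ volume (cap u t') := by
  set b : ℝ := (1 - t') / (1 - t) with hb
  have h1 : 0 < 1 - t := by linarith
  have hb0 : 0 < b := div_pos (by linarith) h1
  have hb1 : b ≤ 1 := by rw [hb, div_le_one h1]; linarith
  have key := Measure.addHaar_image_homothety (volume : Measure (EuclideanSpace ℝ (Fin n))) u b
    (cap u t)
  rw [finrank_euclideanSpace_fin, abs_of_pos (pow_pos hb0 n)] at key
  rw [← key]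
  apply measure_mono
  rintro _ ⟨g, ⟨hg1, hg2⟩, rfl⟩
  have hform : AffineMap.homothety u b g = b • g + (1 - b) • u := by
    rw [AffineMap.homothety_apply, vsub_eq_sub, vadd_eq_add, smul_sub, sub_smul, one_smul]
    abel
  refine ⟨?_, ?_⟩
  · rw [hform]
    calc ‖b • g + (1 - b) • u‖ ≤ ‖b • g‖ + ‖(1 - b) • u‖ := norm_add_le _ _
      _ = b * ‖g‖ + (1 - b) * ‖u‖ := by
          rw [norm_smul, norm_smul, Real.norm_of_nonneg hb0.le, Real.norm_of_nonneg (by linarith)]
      _ ≤ b * 1 + (1 - b) * 1 := by rw [hu]; gcongr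
      _ = 1 := by ring
  · rw [hform, inner_add_right, inner_smul_right, inner_smul_right, real_inner_self_eq_norm_sq, hu]
    have h2 : b * (1 - t) = 1 - t' := by rw [hb]; field_simp
    nlinarith

theorem cap_shrink (u : EuclideanSpace ℝ (Fin n)) (hu : ‖u‖ = 1) {t t' : ℝ} (ht0 : 0 ≤ t)
    (ht : t ≤ t') (ht' : t' < 1) :
    volume (cap u t') ≤
      ENNReal.ofReal ((Real.sqrt ((1 - t' ^ 2) / (1 - t ^ 2))) ^ n) * volume (cap u t) := by
  have h1 : 0 < 1 - t ^ 2 := by nlinarith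
  have h1' : 0 < 1 - t' ^ 2 := by nlinarith
  set μ : ℝ := Real.sqrt ((1 - t ^ 2) / (1 - t' ^ 2)) with hμ
  have hμsq : μ ^ 2 = (1 - t ^ 2) / (1 - t' ^ 2) := Real.sq_sqrt (by positivity)
  have hμ0 : 0 < μ := Real.sqrt_pos.mpr (by positivity)
  have hμ1 : 1 ≤ μ := by
    rw [hμ, Real.one_le_sqrt, le_div_iff₀ h1']; nlinarith
  have hinv : Real.sqrt ((1 - t' ^ 2) / (1 - t ^ 2)) = μ⁻¹ := by
    rw [hμ, ← Real.sqrt_inv, inv_div]
  have hμt : t ≤ μ * t' := by nlinarith
  set v : EuclideanSpace ℝ (Fin n) := -((μ * t' - t) • u) with hv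
  have hsub : v +ᵥ (μ • cap u t') ⊆ cap u t := by
    rintro _ ⟨_, ⟨x, ⟨hx1, hx2⟩, rfl⟩, rfl⟩
    have hinner : inner ℝ u (v +ᵥ (μ • x)) = μ * inner ℝ u x - (μ * t' - t) := by
      rw [vadd_eq_add, inner_add_right, hv, inner_neg_right, inner_smul_right, inner_smul_right,
        real_inner_self_eq_norm_sq, hu]; ring
    refine ⟨?_, ?_⟩
    · have hsq : ‖v +ᵥ (μ • x)‖ ^ 2 ≤ 1 := by
        have e1 : v +ᵥ (μ • x) = μ • x - (μ * t' - t) • u := by
          rw [vadd_eq_add, hv]; abel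
        rw [e1, norm_sub_sq_real, norm_smul, norm_smul, hu, inner_smul_left, inner_smul_right,
          real_inner_comm, Real.norm_of_nonneg hμ0.le, Real.norm_of_nonneg (by linarith)]
        simp only [conj_trivial]
        have hx1' : ‖x‖ ^ 2 ≤ 1 := by nlinarith [norm_nonneg x]
        have hμ2 : μ ^ 2 * (1 - t' ^ 2) = 1 - t ^ 2 := by rw [hμsq]; field_simp
        have h5 : μ ^ 2 * ‖x‖ ^ 2 ≤ μ ^ 2 * 1 := by gcongr
        have h6 : 0 ≤ μ * (μ * t' - t) := mul_nonneg hμ0.le (by linarith)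
        have h7 : (μ * (μ * t' - t)) * t' ≤ (μ * (μ * t' - t)) * inner ℝ u x :=
          mul_le_mul_of_nonneg_left hx2.le h6
        nlinarith
      have := abs_le_of_sq_le_sq' (a := ‖v +ᵥ (μ • x)‖) (b := 1) (by simpa using hsq) (by norm_num)
      exact this.2
    · show t < inner ℝ u (v +ᵥ (μ • x))
      rw [hinner]
      have : μ * t' < μ * inner ℝ u x := mul_lt_mul_of_pos_left hx2 hμ0
      linarith
  have key : volume (v +ᵥ (μ • cap u t')) = ENNReal.ofReal (μ ^ n) * volume (cap u t') := by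
    rw [measure_vadd, Measure.addHaar_smul, finrank_euclideanSpace_fin,
      abs_of_pos (pow_pos hμ0 n)]
  have h3 : ENNReal.ofReal (μ ^ n) * volume (cap u t') ≤ volume (cap u t) := by
    rw [← key]; exact measure_mono hsub
  rw [hinv]
  calc volume (cap u t')
      = ENNReal.ofReal (μ⁻¹ ^ n) * (ENNReal.ofReal (μ ^ n) * volume (cap u t')) := by
        rw [← mul_assoc, ← ENNReal.ofReal_mul (by positivity), ← mul_pow,
          inv_mul_cancel₀ hμ0.ne', one_pow, ENNReal.ofReal_one, one_mul]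
    _ ≤ ENNReal.ofReal (μ⁻¹ ^ n) * volume (cap u t) := by gcongr

theorem cap_rot (u u' : EuclideanSpace ℝ (Fin n)) (h : ‖u‖ = ‖u'‖) (t : ℝ) :
    volume (cap u t) = volume (cap u' t) := by
  set L := (Submodule.span ℝ {u - u'})ᗮ.reflection with hL
  have hLu : L u = u' := Submodule.reflection_sub h
  have hpre : L ⁻¹' (cap u' t) = cap u t := by
    ext g
    simp only [cap, mem_preimage, mem_ofPred_eq, LinearIsometryEquiv.norm_map]
    rw [← hLu, LinearIsometryEquiv.inner_map_map]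
  rw [← hpre]
  exact (LinearIsometryEquiv.measurePreserving L).measure_preimage
    (cap_measurable u' t).nullMeasurableSet

end Vale.Agent.H28.P230
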