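import Vale.Agent.H28.P230.Caps

open MeasureTheory Metric Set
open scoped ENNReal NNReal Pointwise

namespace Vale.Agent.H28.P230

variable {n : ℕ}

theorem cap_zero (t : ℝ) (ht : 0 ≤ t) : cap (0 : EuclideanSpace ℝ (Fin n)) t = ∅ := by
  ext g
  simp only [cap, mem_ofPred_eq, inner_zero_left, mem_empty_iff_false, iff_false, not_and, not_lt]
  intro _; exact ht

theorem cap_anti (u : EuclideanSpace ℝ (Fin n)) {t t' : ℝ} (h : t ≤ t') : cap u t' ⊆ cap u t :=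
  fun _ hg => ⟨hg.1, lt_of_le_of_lt h hg.2⟩

theorem cap_normalize (y : EuclideanSpace ℝ (Fin n)) (hy : y ≠ 0) (t : ℝ) :
    cap y t = cap (‖y‖⁻¹ • y) (t / ‖y‖) := by
  have hy0 : 0 < ‖y‖ := norm_pos_iff.mpr hy
  ext g
  simp only [cap, mem_ofPred_eq, inner_smul_left, conj_trivial]
  rw [div_lt_iff₀ hy0, mul_comm (‖y‖⁻¹) _, mul_assoc, inv_mul_cancel₀ hy0.ne', mul_one]

theorem vol_cap_eq (y u : EuclideanSpace ℝ (Fin n)) (hu : ‖u‖ = 1) (hy : y ≠ 0) (t : ℝ) :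
    volume (cap y t) = volume (cap u (t / ‖y‖)) := by
  rw [cap_normalize y hy]
  apply cap_rot
  rw [norm_smul, norm_inv, norm_norm, inv_mul_cancel₀ (norm_ne_zero_iff.mpr hy), hu]

/-- M1 (continuous). -/
theorem capM1 (y u : EuclideanSpace ℝ (Fin n)) (hu : ‖u‖ = 1) (hy : ‖y‖ ≤ 1) {t : ℝ}
    (ht : 0 ≤ t) : volume (cap y t) ≤ volume (cap u t) := by
  by_cases h0 : y = 0
  · rw [h0, cap_zero t ht]; simp
  · rw [vol_cap_eq y u hu h0]
    apply measure_mono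
    apply cap_anti
    rw [le_div_iff₀ (norm_pos_iff.mpr h0)]
    nlinarith [norm_pos_iff.mpr h0]

theorem one_sub_pow_ge_exp {x : ℝ} (hx0 : 0 ≤ x) (hx : x ≤ 1 / 2) (n : ℕ) :
    Real.exp (-(2 * n * x)) ≤ (1 - x) ^ n := by
  have h1 : Real.exp (-(2 * x)) ≤ 1 - x := by
    have h2 : 1 + 2 * x ≤ Real.exp (2 * x) := by linarith [Real.add_one_le_exp (2 * x)]
    rw [Real.exp_neg, inv_le_comm₀ (Real.exp_pos _) (by linarith)]
    calc (1 - x)⁻¹ ≤ 1 + 2 * x := by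
          rw [inv_le_comm₀ (by linarith) (by linarith), inv_le_iff_one_le_mul₀ (by linarith)]
          nlinarith
      _ ≤ _ := h2
  calc Real.exp (-(2 * n * x)) = (Real.exp (-(2 * x))) ^ n := by
        rw [← Real.exp_nat_mul]; ring_nf
    _ ≤ (1 - x) ^ n := pow_le_pow_left₀ (Real.exp_pos _).le h1 n

/-- M2 (continuous). -/
theorem capM2 (y u : EuclideanSpace ℝ (Fin n)) (hu : ‖u‖ = 1) {a s r : ℝ} (ha0 : 0 ≤ a)
    (ha1 : a < 1) (hs : 0 ≤ s) (hs1 : s < 1) (hr : 0 ≤ r) (hy : 1 - s ≤ ‖y‖)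
    (hsr : s + r ≤ (1 - a) / 2) :
    ENNReal.ofReal (Real.exp (-(2 * n * ((s + r) / (1 - a))))) * volume (cap u a) ≤
      volume (cap y (a + r)) := by
  have hy0 : y ≠ 0 := by
    intro h; rw [h, norm_zero] at hy; linarith
  have h1a : 0 < 1 - a := by linarith
  rw [vol_cap_eq y u hu hy0]
  set t' : ℝ := (a + r) / (1 - s) with ht'
  have h1s : 0 < 1 - s := by linarith
  have ht'1 : t' < 1 := by
    rw [ht', div_lt_one h1s]; linarith
  have hat' : a ≤ t' := by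
    rw [ht', le_div_iff₀ h1s]; nlinarith
  have h2 : cap u t' ⊆ cap u ((a + r) / ‖y‖) := by
    apply cap_anti
    rw [ht']
    gcongr
  refine le_trans ?_ (measure_mono h2)
  refine le_trans ?_ (cap_homothety u hu hat' ht'1)
  gcongr
  have h3 : 1 - (s + r) / (1 - a) ≤ (1 - t') / (1 - a) := by
    rw [le_div_iff₀ h1a, sub_mul, one_mul, div_mul_cancel₀ _ h1a.ne']
    have : t' * (1 - s) = a + r := by rw [ht']; field_simp
    nlinarith
  have h4 : (s + r) / (1 - a) ≤ 1 / 2 := by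
    rw [div_le_iff₀ h1a]; linarith
  refine le_trans (one_sub_pow_ge_exp (by positivity) h4 n) ?_
  exact pow_le_pow_left₀ (by linarith) h3 n

/-- midpoint norm. -/
theorem mid_norm_sq (y y' : EuclideanSpace ℝ (Fin n)) {R : ℝ} (hy : ‖y‖ ≤ R) (hy' : ‖y'‖ ≤ R) :
    ‖(1 / 2 : ℝ) • (y + y')‖ ^ 2 ≤ R ^ 2 - ‖y - y'‖ ^ 2 / 4 := by
  have h := parallelogram_law_with_norm ℝ y y'
  rw [norm_smul, Real.norm_of_nonneg (by norm_num)]
  have h1 : ‖y‖ ^ 2 ≤ R ^ 2 := by gcongr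
  have h2 : ‖y'‖ ^ 2 ≤ R ^ 2 := by gcongr
  nlinarith

theorem cap_inter_sub (y y' : EuclideanSpace ℝ (Fin n)) (t : ℝ) :
    cap y t ∩ cap y' t ⊆ cap ((1 / 2 : ℝ) • (y + y')) t := by
  rintro g ⟨h1, h2⟩
  refine ⟨h1.1, ?_⟩
  rw [inner_smul_left, inner_add_left]
  simp only [conj_trivial]
  linarith [h1.2, h2.2]

/-- M3 (continuous), empty intersection. -/
theorem capM3_empty (y y' : EuclideanSpace ℝ (Fin n)) {R t : ℝ} (ht : 0 ≤ t) (hy : ‖y‖ ≤ R)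
    (hy' : ‖y'‖ ≤ R) (h : R ^ 2 - ‖y - y'‖ ^ 2 / 4 ≤ t ^ 2) : cap y t ∩ cap y' t = ∅ := by
  rw [eq_empty_iff_forall_notMem]
  intro g hg
  have h1 := cap_inter_sub y y' t hg
  have h2 := mid_norm_sq y y' hy hy'
  have h3 : ‖(1 / 2 : ℝ) • (y + y')‖ ≤ t := by
    apply le_of_sq_le_sq _ ht
    linarith
  have h4 := real_inner_le_norm ((1 / 2 : ℝ) • (y + y')) g
  have h5 : ‖(1 / 2 : ℝ) • (y + y')‖ * ‖g‖ ≤ t * 1 := by
    gcongr
    exact h1.1
  linarith [h1.2]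

/-- M3 (continuous). -/
theorem capM3 (y y' u : EuclideanSpace ℝ (Fin n)) (hu : ‖u‖ = 1) {R t σ : ℝ} (ht : 0 < t)
    (ht1 : t < 1) (hσ : 0 ≤ σ) (hy : ‖y‖ ≤ R)
    (hy' : ‖y'‖ ≤ R) (h : R ^ 2 - ‖y - y'‖ ^ 2 / 4 ≤ 1 - σ) :
    volume (cap y t ∩ cap y' t) ≤
      ENNReal.ofReal (Real.exp (-(n * (σ * t ^ 2 / (2 * (1 - t ^ 2)))))) * volume (cap u t) := by
  by_cases hempty : R ^ 2 - ‖y - y'‖ ^ 2 / 4 ≤ t ^ 2
  · rw [capM3_empty y y' ht.le hy hy' hempty]; simp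
  push Not at hempty
  refine le_trans (measure_mono (cap_inter_sub y y' t)) ?_
  set w := (1 / 2 : ℝ) • (y + y') with hw
  have hw2 := mid_norm_sq y y' hy hy'
  rw [← hw] at hw2
  have hσ1 : σ < 1 := by nlinarith
  have h1t : 0 < 1 - t ^ 2 := by nlinarith
  by_cases hw0 : w = 0
  · rw [hw0, cap_zero t ht.le]; simp
  have hwpos : 0 < ‖w‖ := norm_pos_iff.mpr hw0
  rw [vol_cap_eq w u hu hw0]
  set p : ℝ := Real.sqrt (1 - σ) with hp
  have hp2 : p ^ 2 = 1 - σ := Real.sq_sqrt (by linarith)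
  have hp0 : 0 < p := Real.sqrt_pos.mpr (by linarith)
  have hwp : ‖w‖ ≤ p := by
    apply Real.le_sqrt_of_sq_le; linarith
  have htp : t < p := by
    apply Real.lt_sqrt_of_sq_lt; linarith
  have hp1 : p ≤ 1 := by
    rw [hp]; exact Real.sqrt_le_one.mpr (by linarith)
  have h2 : cap u (t / ‖w‖) ⊆ cap u (t / p) := by
    apply cap_anti; gcongr
  refine le_trans (measure_mono h2) ?_
  have h3 : t ≤ t / p := by
    rw [le_div_iff₀ hp0]; nlinarith
  have h4 : t / p < 1 := by rw [div_lt_one hp0]; exact htp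
  refine le_trans (cap_shrink u hu ht.le h3 h4) ?_
  gcongr
  have h5 : (1 - (t / p) ^ 2) / (1 - t ^ 2) ≤ Real.exp (-(σ * t ^ 2 / (1 - t ^ 2))) := by
    have h6 : (1 - (t / p) ^ 2) / (1 - t ^ 2) ≤ 1 - σ * t ^ 2 / (1 - t ^ 2) := by
      rw [div_le_iff₀ h1t, sub_mul, div_mul_cancel₀ _ h1t.ne', div_pow, hp2]
      have h7 : t ^ 2 * (1 + σ) ≤ t ^ 2 / (1 - σ) := by
        rw [le_div_iff₀ (by linarith)]
        nlinarith [sq_nonneg (t * σ)]
      linarith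
    refine le_trans h6 ?_
    linarith [Real.add_one_le_exp (-(σ * t ^ 2 / (1 - t ^ 2)))]
  have h8 : Real.sqrt ((1 - (t / p) ^ 2) / (1 - t ^ 2)) ≤
      Real.exp (-(σ * t ^ 2 / (2 * (1 - t ^ 2)))) := by
    rw [Real.sqrt_le_left (Real.exp_pos _).le]
    refine le_trans h5 (le_of_eq ?_)
    rw [← Real.exp_nat_mul]
    congr 1
    push_cast
    field_simp
  calc Real.sqrt ((1 - (t / p) ^ 2) / (1 - t ^ 2)) ^ n
      ≤ (Real.exp (-(σ * t ^ 2 / (2 * (1 - t ^ 2))))) ^ n :=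
        pow_le_pow_left₀ (Real.sqrt_nonneg _) h8 n
    _ = _ := by rw [← Real.exp_nat_mul]; ring_nf

/-- comparison of two thresholds -/
theorem cap_threshold (u : EuclideanSpace ℝ (Fin n)) (hu : ‖u‖ = 1) {t t' : ℝ} (ht : t ≤ t')
    (ht' : t' < 1) (hn : (t' - t) / (1 - t) ≤ 1 / 2) :
    volume (cap u t) ≤
      ENNReal.ofReal (Real.exp (2 * n * ((t' - t) / (1 - t)))) * volume (cap u t') := by
  have h := cap_homothety u hu ht ht'
  have h1 : 0 < 1 - t := by linarith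
  have h2 : Real.exp (-(2 * n * ((t' - t) / (1 - t)))) ≤ ((1 - t') / (1 - t)) ^ n := by
    have h3 : (1 - t') / (1 - t) = 1 - (t' - t) / (1 - t) := by field_simp; ring
    rw [h3]
    exact one_sub_pow_ge_exp (div_nonneg (by linarith) h1.le) hn n
  calc volume (cap u t)
      = ENNReal.ofReal (Real.exp (2 * n * ((t' - t) / (1 - t)))) *
          (ENNReal.ofReal (Real.exp (-(2 * n * ((t' - t) / (1 - t))))) * volume (cap u t)) := by
        rw [← mul_assoc, ← ENNReal.ofReal_mul (Real.exp_pos _).le, ← Real.exp_add, add_neg_cancel,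
          Real.exp_zero, ENNReal.ofReal_one, one_mul]
    _ ≤ ENNReal.ofReal (Real.exp (2 * n * ((t' - t) / (1 - t)))) *
          (ENNReal.ofReal (((1 - t') / (1 - t)) ^ n) * volume (cap u t)) := by gcongr
    _ ≤ _ := by gcongr

end Vale.Agent.H28.P230
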